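import Vale.Agent.P146.R3.H597.Cut

/-!
# P146: lower bound of the cross overlap by the path coefficients, and their closeness to the means
-/

open MeasureTheory ProbabilityTheory Finset

namespace Vale.Agent.P146.R3.H536

open Vale.Agent.P146 Vale.Agent.P146.Ub.Cv Vale.Agent.P146.H605 Vale.Agent.P146.H453
  Vale.Agent.P146.R2

variable {n : ℕ}

/-- iterated fresh sums do not increase the norm -/
lemma fk_norm {t : ℝ} (ht : 0 ≤ t) (Q : Finset (Fin n)) (A : Fam n) (k M : ℕ) :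
    t ^ k * ns t M (fk Q A k) ≤ ns t (M + k) A := by
  induction k generalizing M with
  | zero => simp [fk]
  | succ k ih =>
    calc t ^ (k + 1) * ns t M (fk Q A (k + 1)) = t ^ k * (t * ns t M (fr Q (fk Q A k))) := by
          rw [fk]; ring
      _ ≤ t ^ k * ns t (M + 1) (fk Q A k) :=
          mul_le_mul_of_nonneg_left (fr_norm ht M Q _) (by positivity)
      _ ≤ ns t (M + 1 + k) A := ih (M + 1)
      _ = ns t (M + (k + 1)) A := by rw [show M + 1 + k = M + (k + 1) by ring]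

/-- restriction to total degree `k` -/
noncomputable def rs (k : ℕ) (A : Fam n) : Fam n := fun v α => if H453.tot α = k then A v α else 0

/-- the iterated fresh sum at `α` only depends on the coefficients of degree `|α| + k` -/
lemma fk_rs (Q : Finset (Fin n)) (A : Fam n) (k m : ℕ) (v : Fin n) (α : MI n)
    (h : H453.tot α + k = m) : fk Q (rs m A) k v α = fk Q A k v α := by
  induction k generalizing v α with
  | zero =>
    simp only [fk, rs]
    rw [if_pos (by omega)]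
  | succ k ih =>
    simp only [fk, fr]
    congr 1
    refine Finset.sum_congr rfl fun e _ => ih _ _ ?_
    rw [H453.tot_add, tot_un]
    omega

lemma ML_zero : ML n 0 = {0} := by
  ext α
  rw [mem_ML, Finset.mem_singleton]
  constructor
  · intro h
    funext e
    have h1 : H453.tot α = 0 := by omega
    unfold H453.tot at h1
    exact (Finset.sum_eq_zero_iff.1 h1) e (Finset.mem_univ e)
  · rintro rfl
    simp [H453.tot]

lemma sq_le_ns_zero {t : ℝ} (ht : 0 ≤ t) (A : Fam n) (v : Fin n) : A v 0 ^ 2 ≤ ns t 0 A := by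
  refine le_trans (le_of_eq ?_) (nv_le_ns ht 0 A v)
  unfold nv
  rw [ML_zero, Finset.sum_singleton, wt_zero, one_mul]

/-- the level `k` part of the norm -/
lemma ns_rs (t : ℝ) (K : ℕ) (A : Fam n) :
    ∑ k ∈ range (K + 1), ns t k (rs k A) = ns t K A := by
  unfold ns nv
  rw [Finset.sum_comm]
  refine Finset.sum_congr rfl fun v _ => ?_
  have h1 : ∀ k ∈ range (K + 1), ∑ α ∈ ML n k, H453.wt t α * rs k A v α ^ 2 =
      ∑ α ∈ (ML n K).filter (fun α => H453.tot α = k), H453.wt t α * A v α ^ 2 := by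
    intro k hk
    rw [mem_range] at hk
    rw [show (ML n K).filter (fun α => H453.tot α = k) =
        (ML n k).filter (fun α => H453.tot α = k) by
      ext α
      rw [mem_filter, mem_filter, mem_ML, mem_ML]
      constructor
      · rintro ⟨_, h⟩
        exact ⟨by omega, h⟩
      · rintro ⟨_, h⟩
        exact ⟨by omega, h⟩]
    rw [Finset.sum_filter]
    refine Finset.sum_congr rfl fun α _ => ?_
    unfold rs
    split_ifs
    · rfl
    · simp
  rw [Finset.sum_congr rfl h1]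
  refine Finset.sum_fiberwise_of_maps_to (g := fun α => H453.tot α) ?_ _
  intro α hα
  rw [mem_ML] at hα
  rw [mem_range]
  omega

/-- **path coefficients and the norm** -/
lemma sum_fk_le {t : ℝ} (ht : 0 ≤ t) (Q : Finset (Fin n)) (A : Fam n) (v : Fin n) (K : ℕ) :
    ∑ k ∈ range (K + 1), t ^ k * fk Q A k v 0 ^ 2 ≤ ns t K A := by
  rw [← ns_rs t K A]
  refine Finset.sum_le_sum fun k _ => ?_
  have h1 : fk Q (rs k A) k v 0 = fk Q A k v 0 :=
    fk_rs Q A k k v 0 (by simp [H453.tot])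
  rw [← h1]
  calc t ^ k * fk Q (rs k A) k v 0 ^ 2 ≤ t ^ k * ns t 0 (fk Q (rs k A) k) :=
        mul_le_mul_of_nonneg_left (sq_le_ns_zero ht _ v) (by positivity)
    _ ≤ ns t (0 + k) (rs k A) := fk_norm ht Q _ k 0
    _ = ns t k (rs k A) := by rw [zero_add]

/-- Jensen's inequality for averages over the sites -/
lemma avg_sq_le (hn : 1 ≤ n) (x : Fin n → ℝ) :
    ((n : ℝ)⁻¹ * ∑ j, x j) ^ 2 ≤ (n : ℝ)⁻¹ * ∑ j, x j ^ 2 := by
  have hn0 : (0 : ℝ) < n := by exact_mod_cast hn
  have h := sq_sum_le_card_mul_sum_sq (s := (univ : Finset (Fin n))) (f := x)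
  rw [Finset.card_univ, Fintype.card_fin] at h
  rw [mul_pow]
  calc (n : ℝ)⁻¹ ^ 2 * (∑ j, x j) ^ 2 ≤ (n : ℝ)⁻¹ ^ 2 * (n * ∑ j, x j ^ 2) :=
        mul_le_mul_of_nonneg_left h (by positivity)
    _ = (n : ℝ)⁻¹ * ∑ j, x j ^ 2 := by
        field_simp

/-- Bessel's inequality for the cross overlap -/
lemma ns_le_crossOverlap {β t : ℝ} (ht : 0 ≤ t) (ht1 : t ≤ 1) (hn : 1 ≤ n) (K : ℕ) :
    (n : ℝ)⁻¹ * ∑ j : Fin n, ns t K (CC β j 0) ≤ n * crossOverlap n β t := by
  rw [crossOverlap_QQ β hn ht ht1]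
  refine mul_le_mul_of_nonneg_left ?_ (by positivity)
  refine Finset.sum_le_sum fun j _ => ?_
  rw [CC_zero]
  exact H749.ns_le (fun v => f2_dom β j v) ht ht1 K

theorem stLow : StLow := by
  intro n β t K ht ht1 hn
  refine le_trans ?_ (ns_le_crossOverlap ht.le ht1 hn K)
  calc ∑ k ∈ range (K + 1), t ^ k * pn β n k ^ 2
      ≤ ∑ k ∈ range (K + 1), (n : ℝ)⁻¹ * ∑ j : Fin n, t ^ k * fk {j} (CC β j 0) k j 0 ^ 2 := by
        refine Finset.sum_le_sum fun k _ => ?_
        have h := avg_sq_le hn fun j : Fin n => fk {j} (CC β j 0) k j 0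
        calc t ^ k * pn β n k ^ 2
            ≤ t ^ k * ((n : ℝ)⁻¹ * ∑ j : Fin n, fk {j} (CC β j 0) k j 0 ^ 2) :=
              mul_le_mul_of_nonneg_left h (by positivity)
          _ = (n : ℝ)⁻¹ * ∑ j : Fin n, t ^ k * fk {j} (CC β j 0) k j 0 ^ 2 := by
              rw [← Finset.mul_sum]; ring
    _ = (n : ℝ)⁻¹ * ∑ j : Fin n, ∑ k ∈ range (K + 1), t ^ k * fk {j} (CC β j 0) k j 0 ^ 2 := by
        rw [← Finset.mul_sum, Finset.sum_comm]
    _ ≤ (n : ℝ)⁻¹ * ∑ j : Fin n, ns t K (CC β j 0) := by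
        refine mul_le_mul_of_nonneg_left ?_ (by positivity)
        exact Finset.sum_le_sum fun j _ => sum_fk_le ht.le {j} _ j K

/-- the path formula at `α = 0` -/
lemma fk_sub_eq {Q : Finset (Fin n)} {C : ℕ → Fam n}
    (hC : ∀ k, C (k + 1) = up (C k) + dn (C k) - pv C k) (k : ℕ) (v : Fin n) :
    fk Q (C 0) k v 0 - C k v 0 = er Q C k v 0 := by
  rw [path_formula Q C hC k]
  simp only [Pi.add_apply, Pi.sub_apply]
  have : dn (pv C k) v 0 = 0 := by
    unfold dn
    simp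
  rw [this]
  ring

theorem stClose : StClose := by
  intro n β t k ht ht1 hn
  have hn0 : (0 : ℝ) < n := by exact_mod_cast hn
  have hB : ∀ j : Fin n, t ^ k * er {j} (CC β j) k j 0 ^ 2 ≤
      (k * eta n k) ^ 2 * ∑ l ∈ range (k + 1), ns t k (CC β j l) := by
    intro j
    set S := ∑ l ∈ range (k + 1), ns t k (CC β j l) with hS
    have hS0 : 0 ≤ S := Finset.sum_nonneg fun l _ => ns_nonneg ht.le _ _
    have h1 : ∀ l ≤ k, ns t k (CC β j l) ≤ Real.sqrt S ^ 2 := by
      intro l hl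
      rw [Real.sq_sqrt hS0]
      exact Finset.single_le_sum (f := fun l => ns t k (CC β j l))
        (fun l _ => ns_nonneg ht.le _ _) (mem_range.2 (by omega))
    have h2 := er_norm (Q := {j}) ht ht1 (by simp) (Real.sqrt_nonneg S) h1 k 0 (by omega)
    have h3 := sq_le_ns_zero ht.le (er {j} (CC β j) k) j
    have h4 : 0 ≤ Real.sqrt t ^ k * Real.sqrt (ns t 0 (er {j} (CC β j) k)) := by positivity
    have h5 := pow_le_pow_left₀ h4 h2 2
    have h6 : (Real.sqrt t ^ k * Real.sqrt (ns t 0 (er {j} (CC β j) k))) ^ 2 =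
        t ^ k * ns t 0 (er {j} (CC β j) k) := by
      rw [mul_pow, Real.sq_sqrt (ns_nonneg ht.le _ _), ← pow_mul, mul_comm k 2, pow_mul,
        Real.sq_sqrt ht.le]
    have h7 : (k * eta n k * Real.sqrt S) ^ 2 = (k * eta n k) ^ 2 * S := by
      rw [mul_pow, Real.sq_sqrt hS0]
    rw [h6, h7] at h5
    exact (mul_le_mul_of_nonneg_left h3 (by positivity)).trans h5
  have h0 : pn β n k - (n : ℝ)⁻¹ * ∑ j : Fin n, CC β j k j 0 =
      (n : ℝ)⁻¹ * ∑ j : Fin n, er {j} (CC β j) k j 0 := by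
    unfold pn
    rw [← mul_sub, ← Finset.sum_sub_distrib]
    congr 1
    exact Finset.sum_congr rfl fun j _ => fk_sub_eq (CC_rec β j) k j
  rw [h0]
  calc t ^ k * ((n : ℝ)⁻¹ * ∑ j : Fin n, er {j} (CC β j) k j 0) ^ 2
      ≤ t ^ k * ((n : ℝ)⁻¹ * ∑ j : Fin n, er {j} (CC β j) k j 0 ^ 2) :=
        mul_le_mul_of_nonneg_left (avg_sq_le hn _) (by positivity)
    _ = (n : ℝ)⁻¹ * ∑ j : Fin n, t ^ k * er {j} (CC β j) k j 0 ^ 2 := by
        rw [← Finset.mul_sum]; ring
    _ ≤ (n : ℝ)⁻¹ * ∑ j : Fin n, (k * eta n k) ^ 2 * ∑ l ∈ range (k + 1), ns t k (CC β j l) :=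
        mul_le_mul_of_nonneg_left (Finset.sum_le_sum fun j _ => hB j) (by positivity)
    _ = (k * eta n k) ^ 2 * ∑ l ∈ range (k + 1), (n : ℝ)⁻¹ * ∑ j : Fin n, ns t k (CC β j l) := by
        rw [← Finset.mul_sum, Finset.sum_comm, ← Finset.mul_sum]
        ring

end Vale.Agent.P146.R3.H536
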