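import Vale.Agent.P146.R3.H49.Inv

/-!
# P146, R5: the spectral part is at most its value for the R-transform `b² y`
-/

open MeasureTheory Set Filter Topology Finset
open Vale.Agent.P166 Vale.Agent.P157.Par

namespace Vale.Agent.P146.R3.H536

open Vale.Agent.P146.R3.H49

variable {b : ℝ}

lemma hs00 (b x : ℝ) : hs b 0 0 x = b * x := by
  unfold hs; ring

lemma sSup00 (hb : 0 < b) : sSup (muS b 0 0).support = 2 * b := by
  rw [sSup_support (b := b) (k := 0) (s := 0), hs00]
  · ring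
  · intro x hx
    rw [hs00, hs00]
    exact mul_le_mul_of_nonneg_left hx.2 hb.le

/-- the Stieltjes transform of the law of `b x` at `b (w + 1/w)` -/
lemma st00 (hb : 0 < b) {w : ℝ} (hw : 0 < w) (hw1 : w < 1) :
    ∫ x, (b * (w + w⁻¹) - hs b 0 0 x)⁻¹ ∂sc = w / b := by
  have h := integral_A hw hw1 rfl 0
  simp only [chR_zero, one_mul, zero_add, pow_one] at h
  have e : ∀ x : ℝ, (b * (w + w⁻¹) - hs b 0 0 x)⁻¹ = b⁻¹ * (w + w⁻¹ - x)⁻¹ := by
    intro x
    rw [hs00, ← mul_sub, mul_inv]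
  simp_rw [e]
  rw [integral_const_mul, h]
  field_simp

/-- every `z > 2 b` is of the form `b (w + 1/w)` -/
lemma exists_w (hb : 0 < b) {z : ℝ} (hz : 2 * b < z) :
    ∃ w : ℝ, 0 < w ∧ w < 1 ∧ z = b * (w + w⁻¹) := by
  obtain ⟨ζ, hζ⟩ : ∃ ζ : ℝ, ζ = z / b := ⟨_, rfl⟩
  have hz' : z = b * ζ := by rw [hζ]; field_simp
  have hζ2 : 2 < ζ := by
    rw [hζ, lt_div_iff₀ hb]; linarith
  obtain ⟨r, hr⟩ : ∃ r : ℝ, r = Real.sqrt (ζ ^ 2 - 4) := ⟨_, rfl⟩
  have hr2 : r ^ 2 = ζ ^ 2 - 4 := by
    rw [hr, Real.sq_sqrt (by nlinarith)]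
  have hr0 : 0 ≤ r := by rw [hr]; exact Real.sqrt_nonneg _
  have hrζ : r < ζ := by
    by_contra h
    push Not at h
    nlinarith
  have hrl : ζ - 2 < r := by
    by_contra h
    push Not at h
    nlinarith
  refine ⟨(ζ - r) / 2, by linarith, by linarith, ?_⟩
  have h1 : ((ζ - r) / 2) * ((ζ + r) / 2) = 1 := by nlinarith
  have h2 : ((ζ - r) / 2)⁻¹ = (ζ + r) / 2 := by
    exact inv_eq_of_mul_eq_one_right h1
  rw [h2, hz']
  ring

/-- **the R-transform of the law of `b x` is at most `b² y`** -/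
theorem Rt_le (hb : 0 < b) {y : ℝ} (hy : 0 ≤ y) : Rt (muS b 0 0) y ≤ b ^ 2 * y := by
  unfold Rt
  rcases hy.eq_or_lt with hy0 | hy0
  · subst hy0
    have hemp : SS b 0 0 0 = ∅ := by
      rw [Set.eq_empty_iff_forall_notMem]
      rintro z ⟨h1, h2⟩
      rw [sSup00 hb] at h1
      obtain ⟨w, hw, hw1, hz⟩ := exists_w hb h1
      rw [integral_muS, hz, st00 hb hw hw1] at h2
      have : 0 < w / b := div_pos hw hb
      linarith
    rw [stInv_eq, hemp, Real.sInf_empty]
    simp
  · rw [sub_le_iff_le_add]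
    by_cases h : b * y < 1
    · have hw : 0 < b * y := mul_pos hb hy0
      have hz : b * (b * y + (b * y)⁻¹) = b ^ 2 * y + 1 / y := by
        field_simp
      rw [← hz]
      refine stInv_le (SS_mem ?_ ?_)
      · rw [sSup00 hb]
        have := zeta_gt hw h rfl
        nlinarith
      · rw [st00 hb hw h]
        refine le_of_eq ?_
        field_simp
    · push Not at h
      have h1 : stInv (muS b 0 0) y ≤ 2 * b := by
        refine le_of_forall_gt_imp_ge_of_dense fun z hz => ?_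
        obtain ⟨w, hw, hw1, hzw⟩ := exists_w hb hz
        refine stInv_le (SS_mem (by rw [sSup00 hb]; exact hz) ?_)
        rw [hzw, st00 hb hw hw1, div_le_iff₀ hb]
        nlinarith
      have h2 : 2 * b ≤ b ^ 2 * y + 1 / y := by
        have h3 : b ^ 2 * y + 1 / y - 2 * b = (b * y - 1) ^ 2 / y := by
          field_simp
          ring
        have h4 : 0 ≤ (b * y - 1) ^ 2 / y := by positivity
        linarith
      linarith

lemma integral_lin (a q : ℝ) : ∫ s in (0 : ℝ)..q, (a - s) = a * q - q ^ 2 / 2 := by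
  have h : IntervalIntegrable (fun s : ℝ => s) volume 0 q := continuous_id.intervalIntegrable _ _
  rw [intervalIntegral.integral_sub intervalIntegrable_const h]
  simp only [intervalIntegral.integral_const, sub_zero, smul_eq_mul, integral_id]
  ring

lemma integral_max {q : ℝ} (hq0 : 0 ≤ q) (hq1 : q ≤ 1) :
    ∫ s in (0 : ℝ)..1, max (q - s) 0 = q ^ 2 / 2 := by
  have hc : Continuous fun s : ℝ => max (q - s) 0 := by fun_prop
  rw [← intervalIntegral.integral_add_adjacent_intervals (b := q)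
    (hc.intervalIntegrable _ _) (hc.intervalIntegrable _ _)]
  have h1 : ∫ s in (0 : ℝ)..q, max (q - s) 0 = ∫ s in (0 : ℝ)..q, (q - s) := by
    refine intervalIntegral.integral_congr fun s hs => ?_
    rw [uIcc_of_le hq0] at hs
    exact max_eq_left (by linarith [hs.2])
  have h2 : ∫ s in q..1, max (q - s) 0 = ∫ s in q..1, (0 : ℝ) := by
    refine intervalIntegral.integral_congr fun s hs => ?_
    rw [uIcc_of_le hq1] at hs
    exact max_eq_right (by linarith [hs.1])
  rw [h1, h2, intervalIntegral.integral_zero, add_zero, integral_lin]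
  ring

/-- a path is monotone -/
lemma path_le {k : ℕ} {q : ℕ → ℝ} (hq : Path k q) {i j : ℕ} (hij : i ≤ j) (hj : j ≤ k) :
    q i ≤ q j := by
  induction j, hij using Nat.le_induction with
  | base => exact le_rfl
  | succ j hij ih => exact (ih (by omega)).trans (hq.2 j (by omega))

lemma sum_p {k : ℕ} {m : ℕ → ℝ} (hm : Exponents k m) :
    ∑ l ∈ Finset.range (k + 1), (m (l + 1) - m l) = 1 := by
  rw [Finset.sum_range_sub, hm.1, hm.2.1, sub_zero]

/-- **the spectral part** -/
theorem specPart_le (hb : 0 < b) {k : ℕ} {m q : ℕ → ℝ} (hm : Exponents k m) (hq : Path k q)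
    (hq1 : q k ≤ 1) :
    specPart 1 (muS b 0 0) k m q ≤
      b ^ 2 / 4 * (1 - ∑ l ∈ Finset.range (k + 1), (m (l + 1) - m l) * q l ^ 2) := by
  have hp0 : ∀ l ∈ Finset.range (k + 1), 0 ≤ m (l + 1) - m l := by
    intro l hl
    have := hm.2.2 l (by rw [Finset.mem_range] at hl; omega)
    linarith
  have hql : ∀ l ∈ Finset.range (k + 1), 0 ≤ q l ∧ q l ≤ 1 := by
    intro l hl
    rw [Finset.mem_range] at hl
    exact ⟨hq.1.trans (path_le hq (Nat.zero_le l) (by omega)),
      (path_le hq (by omega) le_rfl).trans hq1⟩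
  set Λ : ℝ → ℝ := fun s => 1 - s -
    ∑ l ∈ Finset.range (k + 1), (m (l + 1) - m l) * max (q l - s) 0 with hΛ
  have hΛc : Continuous Λ := by
    rw [hΛ]
    fun_prop
  have hΛ0 : ∀ s ∈ Icc (0 : ℝ) 1, 0 ≤ Λ s := by
    intro s hs
    have h1 : ∑ l ∈ Finset.range (k + 1), (m (l + 1) - m l) * max (q l - s) 0 ≤
        ∑ l ∈ Finset.range (k + 1), (m (l + 1) - m l) * (1 - s) := by
      refine Finset.sum_le_sum fun l hl => mul_le_mul_of_nonneg_left ?_ (hp0 l hl)
      exact max_le (by linarith [(hql l hl).2]) (by linarith [hs.2])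
    rw [← Finset.sum_mul, sum_p hm, one_mul] at h1
    simp only [hΛ]
    linarith
  have hint : ∫ s in (0 : ℝ)..1, Λ s =
      1 / 2 * (1 - ∑ l ∈ Finset.range (k + 1), (m (l + 1) - m l) * q l ^ 2) := by
    simp only [hΛ]
    have i1 : IntervalIntegrable (fun s : ℝ => 1 - s) volume 0 1 := by
      apply Continuous.intervalIntegrable; fun_prop
    have i2 : ∀ l ∈ Finset.range (k + 1), IntervalIntegrable
        (fun s : ℝ => (m (l + 1) - m l) * max (q l - s) 0) volume 0 1 := by
      intro l _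
      apply Continuous.intervalIntegrable; fun_prop
    have i3 : IntervalIntegrable (fun s : ℝ => ∑ l ∈ Finset.range (k + 1),
        (m (l + 1) - m l) * max (q l - s) 0) volume 0 1 := by
      apply Continuous.intervalIntegrable; fun_prop
    rw [intervalIntegral.integral_sub i1 i3, intervalIntegral.integral_finsetSum i2]
    have h1 : ∫ s in (0 : ℝ)..1, (1 - s) = 1 / 2 := by
      rw [integral_lin]
      norm_num
    have h2 : ∀ l ∈ Finset.range (k + 1), ∫ s in (0 : ℝ)..1, (m (l + 1) - m l) * max (q l - s) 0 =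
        (m (l + 1) - m l) * (q l ^ 2 / 2) := by
      intro l hl
      rw [intervalIntegral.integral_const_mul, integral_max (hql l hl).1 (hql l hl).2]
    rw [h1, Finset.sum_congr rfl h2, mul_sub, Finset.mul_sum]
    congr 1
    · ring
    · refine Finset.sum_congr rfl fun l _ => ?_
      ring
  have hR0 : 0 ≤ 1 - ∑ l ∈ Finset.range (k + 1), (m (l + 1) - m l) * q l ^ 2 := by
    have h1 : ∑ l ∈ Finset.range (k + 1), (m (l + 1) - m l) * q l ^ 2 ≤
        ∑ l ∈ Finset.range (k + 1), (m (l + 1) - m l) * 1 := by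
      refine Finset.sum_le_sum fun l hl => mul_le_mul_of_nonneg_left ?_ (hp0 l hl)
      exact pow_le_one₀ (hql l hl).1 (hql l hl).2
    rw [← Finset.sum_mul, sum_p hm, one_mul] at h1
    linarith
  unfold specPart
  by_cases hi : IntervalIntegrable (fun s : ℝ => Rt (muS b 0 0) (1 * Λ s)) volume 0 1
  · have h1 : ∫ s in (0 : ℝ)..1, Rt (muS b 0 0) (1 * Λ s) ≤ ∫ s in (0 : ℝ)..1, b ^ 2 * Λ s := by
      refine intervalIntegral.integral_mono_on zero_le_one hi
        ((continuous_const.mul hΛc).intervalIntegrable _ _) fun s hs => ?_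
      rw [one_mul]
      exact Rt_le hb (hΛ0 s hs)
    rw [intervalIntegral.integral_const_mul, hint] at h1
    calc 1 / 2 * ∫ s in (0 : ℝ)..1, Rt (muS b 0 0) (1 * Λ s)
        ≤ 1 / 2 * (b ^ 2 * (1 / 2 *
          (1 - ∑ l ∈ Finset.range (k + 1), (m (l + 1) - m l) * q l ^ 2))) :=
          mul_le_mul_of_nonneg_left h1 (by norm_num)
      _ = b ^ 2 / 4 * (1 - ∑ l ∈ Finset.range (k + 1), (m (l + 1) - m l) * q l ^ 2) := by ring
  · have h1 : ∫ s in (0 : ℝ)..1, Rt (muS b 0 0) (1 * Λ s) = 0 :=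
      intervalIntegral.integral_undef hi
    have h2 : 0 ≤ b ^ 2 / 4 * (1 - ∑ l ∈ Finset.range (k + 1), (m (l + 1) - m l) * q l ^ 2) := by
      positivity
    calc 1 / 2 * ∫ s in (0 : ℝ)..1, Rt (muS b 0 0) (1 * Λ s) = 0 := by rw [h1, mul_zero]
      _ ≤ _ := h2

end Vale.Agent.P146.R3.H536
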